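import Mathlib.Combinatorics.SimpleGraph.Paths
import Mathlib.Combinatorics.SimpleGraph.DeleteEdges
import Mathlib.Data.Set.Card
import Mathlib.Data.Fintype.EquivFin
import Mathlib.Tactic

/-!
Menger's theorem, set version, for finite simple graphs (proof of Goering by deleting an edge).
-/

namespace Vale.Agent.P235.H327

open SimpleGraph

universe u

variable {V : Type u}

/-- There is a walk from `a` to `b` all of whose vertices lie in `C`. -/
def Within (G : SimpleGraph V) (C : Set V) (a b : V) : Prop :=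
  ∃ p : G.Walk a b, ∀ v ∈ p.support, v ∈ C

namespace Within

variable {G H : SimpleGraph V} {C D : Set V} {a b c : V}

theorem refl (h : a ∈ C) : Within G C a a :=
  ⟨Walk.nil, by simpa using h⟩

theorem symm (h : Within G C a b) : Within G C b a := by
  obtain ⟨p, hp⟩ := h
  exact ⟨p.reverse, by simpa using hp⟩

theorem trans (h : Within G C a b) (h' : Within G C b c) : Within G C a c := by
  obtain ⟨p, hp⟩ := h
  obtain ⟨q, hq⟩ := h'
  refine ⟨p.append q, fun v hv => ?_⟩
  rw [Walk.mem_support_append_iff] at hv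
  exact hv.elim (hp v) (hq v)

theorem mono (hCD : C ⊆ D) (h : Within G C a b) : Within G D a b := by
  obtain ⟨p, hp⟩ := h
  exact ⟨p, fun v hv => hCD (hp v hv)⟩

theorem mono_graph (hGH : G ≤ H) (h : Within G C a b) : Within H C a b := by
  obtain ⟨p, hp⟩ := h
  exact ⟨p.mapLe hGH, fun v hv => hp v (by simpa using hv)⟩

theorem adj (h : G.Adj a b) (ha : a ∈ C) (hb : b ∈ C) : Within G C a b :=
  ⟨Walk.cons h Walk.nil, by simp [ha, hb]⟩

theorem left_mem (h : Within G C a b) : a ∈ C := by
  obtain ⟨p, hp⟩ := h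
  exact hp a p.start_mem_support

theorem right_mem (h : Within G C a b) : b ∈ C := by
  obtain ⟨p, hp⟩ := h
  exact hp b p.end_mem_support

/-- A walk that leaves `X` has an edge from `X` to its complement. -/
theorem exists_crossing (h : Within G C a b) {X : Set V} (ha : a ∈ X) (hb : b ∉ X) :
    ∃ u v, G.Adj u v ∧ u ∈ X ∧ v ∉ X ∧ u ∈ C ∧ v ∈ C := by
  obtain ⟨p, hp⟩ := h
  induction p with
  | nil => exact absurd ha hb
  | @cons u v w huv q ih =>
    by_cases hv : v ∈ X
    · exact ih hv hb (fun z hz => hp z (by simp [hz]))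
    · exact ⟨u, v, huv, ha, hv, hp u (by simp), hp v (by simp)⟩

end Within

/-- Every walk from `A` to `B` meets `S`. -/
def Separates (G : SimpleGraph V) (A B S : Set V) : Prop :=
  ∀ a ∈ A, ∀ b ∈ B, ¬ Within G Sᶜ a b

/-- `k` pairwise disjoint sets, each containing a walk from `A` to `B`. -/
def Linked (G : SimpleGraph V) (A B : Set V) (k : ℕ) : Prop :=
  ∃ C : Fin k → Set V, Pairwise (fun i j => Disjoint (C i) (C j)) ∧
    ∀ i, ∃ a ∈ A, ∃ b ∈ B, Within G (C i) a b

/-- Every walk from `A` to `B` contains a path from `A` to `B` all of whose inner vertices are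
outside `A` and `B`. -/
theorem exists_trim {G : SimpleGraph V} {A B C : Set V} {a b : V} (ha : a ∈ A) (hb : b ∈ B)
    (h : Within G C a b) :
    ∃ a' ∈ A, ∃ b' ∈ B, ∃ p : G.Walk a' b', p.IsPath ∧ (∀ v ∈ p.support, v ∈ C) ∧
      (∀ v ∈ p.support, v ∈ A → v = a') ∧ (∀ v ∈ p.support, v ∈ B → v = b') := by
  classical
  let P : ℕ → Prop := fun n => ∃ a' ∈ A, ∃ b' ∈ B, ∃ p : G.Walk a' b',
    (∀ v ∈ p.support, v ∈ C) ∧ p.length = n
  have hP : ∃ n, P n := by
    obtain ⟨p, hp⟩ := h
    exact ⟨p.length, a, ha, b, hb, p, hp, rfl⟩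
  obtain ⟨a', ha', b', hb', p, hpC, hpl⟩ := Nat.find_spec hP
  have hmin : ∀ m, m < p.length → ¬ P m := fun m hm => Nat.find_min hP (by rw [← hpl]; exact hm)
  have hlast : ∀ v ∈ p.support, v ∈ A → v = a' := by
    intro v hv hvA
    by_contra hne
    have h1 : (p.dropUntil v hv).length < p.length := by
      have h2 := congrArg Walk.length (p.take_spec hv)
      rw [Walk.length_append] at h2
      have h3 : (p.takeUntil v hv).length ≠ 0 := by
        intro h0
        exact hne (Walk.eq_of_length_eq_zero h0).symm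
      omega
    exact hmin _ h1 ⟨v, hvA, b', hb', p.dropUntil v hv,
      fun w hw => hpC w (p.support_dropUntil_subset_support hv hw), rfl⟩
  have hfirst : ∀ v ∈ p.support, v ∈ B → v = b' := by
    intro v hv hvB
    by_contra hne
    have h1 : (p.takeUntil v hv).length < p.length := by
      have h2 := congrArg Walk.length (p.take_spec hv)
      rw [Walk.length_append] at h2
      have h3 : (p.dropUntil v hv).length ≠ 0 := by
        intro h0
        exact hne (Walk.eq_of_length_eq_zero h0)
      omega
    exact hmin _ h1 ⟨a', ha', v, hvB, p.takeUntil v hv,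
      fun w hw => hpC w (p.support_takeUntil_subset_support hv hw), rfl⟩
  have hpath : p.IsPath := by
    have h1 : ¬ p.bypass.length < p.length := fun hlt =>
      hmin _ hlt ⟨a', ha', b', hb', p.bypass,
        fun w hw => hpC w (p.support_bypass_subset_support hw), rfl⟩
    have h2 := p.length_bypass_le_length
    have h3 : p.bypass = p := by
      have := p.bypass_eq_self_of_length_le_length_bypass (by omega)
      exact this
    rw [← h3]
    exact p.bypass_isPath
  exact ⟨a', ha', b', hb', p, hpath, hpC, hlast, hfirst⟩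

theorem Separates.symm {G : SimpleGraph V} {A B S : Set V} (h : Separates G A B S) :
    Separates G B A S := fun a ha b hb hw => h b hb a ha hw.symm

theorem Linked.symm {G : SimpleGraph V} {A B : Set V} {k : ℕ} (h : Linked G A B k) :
    Linked G B A k := by
  obtain ⟨C, hC, h⟩ := h
  refine ⟨C, hC, fun i => ?_⟩
  obtain ⟨a, ha, b, hb, hw⟩ := h i
  exact ⟨b, hb, a, ha, hw.symm⟩

theorem Linked.mono_graph {G H : SimpleGraph V} (hGH : G ≤ H) {A B : Set V} {k : ℕ}
    (h : Linked G A B k) : Linked H A B k := by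
  obtain ⟨C, hC, h⟩ := h
  refine ⟨C, hC, fun i => ?_⟩
  obtain ⟨a, ha, b, hb, hw⟩ := h i
  exact ⟨a, ha, b, hb, hw.mono_graph hGH⟩

theorem Within.reach {G : SimpleGraph V} {C : Set V} {a b : V} (h : Within G C a b) :
    Within G {u | Within G C a u} a b := by
  classical
  obtain ⟨p, hp⟩ := h
  refine ⟨p, fun v hv => ?_⟩
  exact ⟨p.takeUntil v hv, fun w hw => hp w (p.support_takeUntil_subset_support hv hw)⟩

section Step

variable {G G' : SimpleGraph V} {A B S : Set V} {x y : V}

/-- In the step of the induction, a set separating `A` from `S + x` after deletion of the edge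
`xy` separates `A` from `B`. -/
theorem separates_of_step
    (hG : ∀ u v, G.Adj u v → G'.Adj u v ∨ (u = x ∧ v = y) ∨ (u = y ∧ v = x))
    (hS : Separates G' A B S) (hy : ∃ b ∈ B, Within G' Sᶜ y b) {T : Set V}
    (hT : Separates G' A (insert x S) T) : Separates G A B T := by
  intro a ha b hb hw
  set RT : Set V := {v | ∃ a ∈ A, Within G' Tᶜ a v} with hRT
  have h1 : ∀ v ∈ RT, v ∉ insert x S := by
    rintro v ⟨a', ha', hav⟩ hv
    exact hT a' ha' v hv hav
  have h2 : ∀ v ∈ RT, ∃ a ∈ A, Within G' Sᶜ a v := by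
    rintro v ⟨a', ha', hav⟩
    refine ⟨a', ha', hav.reach.mono ?_⟩
    intro u hu huS
    exact h1 u ⟨a', ha', hu⟩ (Set.mem_insert_of_mem _ huS)
  have haR : a ∈ RT := ⟨a, ha, Within.refl hw.left_mem⟩
  have hbR : b ∉ RT := by
    intro hbR
    obtain ⟨a', ha', h⟩ := h2 b hbR
    exact hS a' ha' b hb h
  obtain ⟨u, v, huv, hu, hv, huT, hvT⟩ := hw.exists_crossing haR hbR
  rcases hG u v huv with h | ⟨rfl, rfl⟩ | ⟨rfl, rfl⟩
  · obtain ⟨a', ha', hau⟩ := hu
    exact hv ⟨a', ha', hau.trans (Within.adj h huT hvT)⟩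
  · exact h1 _ hu (Set.mem_insert _ _)
  · obtain ⟨a', ha', hau⟩ := h2 _ hu
    obtain ⟨b', hb', hyb⟩ := hy
    exact hS a' ha' b' hb' (hau.trans hyb)

/-- Orientation of the deleted edge. -/
theorem exists_orient
    (hG : ∀ u v, G.Adj u v → G'.Adj u v ∨ (u = x ∧ v = y) ∨ (u = y ∧ v = x))
    (hS : Separates G' A B S) (hn : ¬ Separates G A B S) :
    ((∃ a ∈ A, Within G' Sᶜ a x) ∧ ∃ b ∈ B, Within G' Sᶜ y b) ∨
      ((∃ a ∈ A, Within G' Sᶜ a y) ∧ ∃ b ∈ B, Within G' Sᶜ x b) := by
  unfold Separates at hn
  push Not at hn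
  obtain ⟨a, ha, b, hb, hw⟩ := hn
  set R : Set V := {v | ∃ a ∈ A, Within G' Sᶜ a v}
  set L : Set V := {v | ∃ b ∈ B, Within G' Sᶜ v b}
  have hRL : ∀ v ∈ R, v ∉ L := by
    rintro v ⟨a', ha', h⟩ ⟨b', hb', h'⟩
    exact hS a' ha' b' hb' (h.trans h')
  have haR : a ∈ R := ⟨a, ha, Within.refl hw.left_mem⟩
  have hbL : b ∈ L := ⟨b, hb, Within.refl hw.right_mem⟩
  obtain ⟨u, v, huv, hu, hv, huS, hvS⟩ :=
    hw.exists_crossing (X := R) haR (fun h => hRL b h hbL)
  obtain ⟨u', v', huv', hu', hv', huS', hvS'⟩ :=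
    hw.exists_crossing (X := Lᶜ) (hRL a haR) (fun h => h hbL)
  have hv'L : v' ∈ L := not_not.1 hv'
  have k1 : ¬ G'.Adj u v := by
    intro h
    obtain ⟨a', ha', hau⟩ := hu
    exact hv ⟨a', ha', hau.trans (Within.adj h huS hvS)⟩
  have k2 : ¬ G'.Adj u' v' := by
    intro h
    obtain ⟨b', hb', hbu⟩ := hv'L
    exact hu' ⟨b', hb', (Within.adj h huS' hvS').trans hbu⟩
  rcases hG u v huv with h | ⟨rfl, rfl⟩ | ⟨rfl, rfl⟩
  · exact absurd h k1
  · rcases hG u' v' huv' with h | ⟨rfl, rfl⟩ | ⟨rfl, rfl⟩
    · exact absurd h k2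
    · exact Or.inl ⟨hu, hv'L⟩
    · exact absurd hv'L (hRL _ hu)
  · rcases hG u' v' huv' with h | ⟨rfl, rfl⟩ | ⟨rfl, rfl⟩
    · exact absurd h k2
    · exact absurd hv'L (hRL _ hu)
    · exact Or.inr ⟨hu, hv'L⟩

end Step

/-- Trimmed form of a linkage onto a set with as many elements as there are paths. -/
theorem Linked.data {G : SimpleGraph V} {A X : Set V} {k : ℕ} (h : Linked G A X k) :
    ∃ (P : Fin k → Set V) (s : Fin k → V), Pairwise (fun i j => Disjoint (P i) (P j)) ∧
      (∀ i, s i ∈ X) ∧ (∀ i, s i ∈ P i) ∧ Function.Injective s ∧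
      (∀ i, ∃ a ∈ A, Within G (P i) a (s i)) ∧
      ∀ i, ∀ v ∈ P i, v ≠ s i → ∃ a ∈ A, Within G Xᶜ a v := by
  classical
  obtain ⟨C, hC, h⟩ := h
  have h' : ∀ i, ∃ a ∈ A, ∃ s ∈ X, ∃ p : G.Walk a s, p.IsPath ∧ (∀ v ∈ p.support, v ∈ C i) ∧
      (∀ v ∈ p.support, v ∈ A → v = a) ∧ (∀ v ∈ p.support, v ∈ X → v = s) := by
    intro i
    obtain ⟨a, ha, b, hb, hw⟩ := h i
    exact exists_trim ha hb hw
  choose a ha s hs p hp hpC hpA hpX using h'
  have hdis : Pairwise (fun i j => Disjoint {v | v ∈ (p i).support} {v | v ∈ (p j).support}) := by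
    intro i j hij
    rw [Set.disjoint_left]
    intro v hv hv'
    exact (Set.disjoint_left.1 (hC hij)) (hpC i v hv) (hpC j v hv')
  refine ⟨fun i => {v | v ∈ (p i).support}, s, hdis, hs, fun i => (p i).end_mem_support, ?_,
    fun i => ⟨a i, ha i, p i, fun v hv => hv⟩, ?_⟩
  · intro i j hij
    by_contra hne
    have h1 : s i ∈ (p i).support := (p i).end_mem_support
    have h2 : s i ∈ (p j).support := by
      rw [hij]
      exact (p j).end_mem_support
    exact (Set.disjoint_left.1 (hdis hne)) h1 h2
  · intro i v hv hne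
    refine ⟨a i, ha i, (p i).takeUntil v hv, fun w hw hwX => ?_⟩
    have h1 : w = s i := hpX i w ((p i).support_takeUntil_subset_support hv hw) hwX
    have h2 := Walk.endpoint_notMem_support_takeUntil (hp i) hv (Ne.symm hne)
    rw [h1] at hw
    exact h2 hw

/-- Gluing of two linkages along a smallest separator. -/
theorem linked_glue [Finite V] {G G' : SimpleGraph V} (hle : G' ≤ G) {A B : Set V}
    {S : Finset V} {x y : V} {k : ℕ} (hxy : G.Adj x y) (hS : Separates G' A B S)
    (hx : ∃ a ∈ A, Within G' (↑S : Set V)ᶜ a x) (hy : ∃ b ∈ B, Within G' (↑S : Set V)ᶜ y b)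
    (hcard : S.card + 1 = k) (h1 : Linked G' A (insert x (↑S : Set V)) k)
    (h2 : Linked G' (insert y (↑S : Set V)) B k) : Linked G A B k := by
  classical
  have hxS : x ∉ S := by
    obtain ⟨a, ha, hax⟩ := hx
    exact hax.right_mem
  have hyS : y ∉ S := by
    obtain ⟨b, hb, hyb⟩ := hy
    exact hyb.left_mem
  have hxyne : x ≠ y := hxy.ne
  obtain ⟨P, s, hP, hsX, hsP, hsinj, hPa, hPv⟩ := h1.data
  obtain ⟨Q, t, hQ, htY, htQ, htinj, hQb, hQv⟩ := h2.symm.data
  have hYcard : (insert y S : Finset V).card = k := by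
    rw [Finset.card_insert_of_notMem hyS, hcard]
  have htsurj : ∀ v ∈ (insert y (↑S : Set V)), ∃ j, t j = v := by
    intro v hv
    have h3 : Finset.univ.image t = insert y S := by
      apply Finset.eq_of_subset_of_card_le
      · intro w hw
        obtain ⟨j, -, rfl⟩ := Finset.mem_image.1 hw
        have := htY j
        simpa using this
      · rw [Finset.card_image_of_injective _ htinj, hYcard]
        simp
    have h4 : v ∈ Finset.univ.image t := by
      rw [h3]
      simpa using hv
    obtain ⟨j, -, hj⟩ := Finset.mem_image.1 h4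
    exact ⟨j, hj⟩
  let φ : V → V := fun v => if v = x then y else v
  have hφ : ∀ i, φ (s i) ∈ insert y (↑S : Set V) := by
    intro i
    by_cases hi : s i = x
    · simp [φ, hi]
    · have := hsX i
      rcases this with h | h
      · exact absurd h hi
      · simp [φ, hi, h]
  choose j hj using fun i => htsurj _ (hφ i)
  have hjinj : ∀ i i', i ≠ i' → j i ≠ j i' := by
    intro i i' hne he
    have h3 : φ (s i) = φ (s i') := by rw [← hj i, ← hj i', he]
    by_cases hi : s i = x
    · by_cases hi' : s i' = x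
      · exact hne (hsinj (hi.trans hi'.symm))
      · have h4 : s i' = y := by simpa [φ, hi, hi'] using h3.symm
        rcases hsX i' with h | h
        · exact hi' h
        · exact hyS (h4 ▸ h)
    · by_cases hi' : s i' = x
      · have h4 : s i = y := by simpa [φ, hi, hi'] using h3
        rcases hsX i with h | h
        · exact hi h
        · exact hyS (h4 ▸ h)
      · have h4 : s i = s i' := by simpa [φ, hi, hi'] using h3
        exact hne (hsinj h4)
  have hcompl : ∀ z : V, (insert z (↑S : Set V))ᶜ ⊆ (↑S : Set V)ᶜ := fun z w hw hwS =>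
    hw (Set.mem_insert_of_mem _ hwS)
  have hPQ : ∀ i i', i ≠ i' → Disjoint (P i) (Q (j i')) := by
    intro i i' hne
    rw [Set.disjoint_left]
    intro v hvP hvQ
    by_cases hv1 : v = s i
    · by_cases hv2 : v = t (j i')
      · have h3 : s i = φ (s i') := by rw [← hj i', ← hv2, hv1]
        by_cases hi' : s i' = x
        · have h4 : s i = y := by simpa [φ, hi'] using h3
          rcases hsX i with h | h
          · exact hxyne (h.symm.trans h4)
          · exact hyS (h4 ▸ h)
        · have h4 : s i = s i' := by simpa [φ, hi'] using h3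
          exact hne (hsinj h4)
      · obtain ⟨b, hb, hbv⟩ := hQv (j i') v hvQ hv2
        have hvY : v ∉ insert y (↑S : Set V) := hbv.right_mem
        have hvS : v ∉ S := fun h => hvY (Set.mem_insert_of_mem _ h)
        have hvx : v = x := by
          rcases (hv1 ▸ hsX i : v ∈ insert x (↑S : Set V)) with h | h
          · exact h
          · exact absurd h hvS
        obtain ⟨a, ha, hax⟩ := hx
        exact hS a ha b hb (hax.trans (hvx ▸ (hbv.mono (hcompl y)).symm))
    · obtain ⟨a, ha, hav⟩ := hPv i v hvP hv1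
      by_cases hv2 : v = t (j i')
      · have hvX : v ∉ insert x (↑S : Set V) := hav.right_mem
        have hvS : v ∉ S := fun h => hvX (Set.mem_insert_of_mem _ h)
        have hvy : v = y := by
          rcases (hv2 ▸ htY (j i') : v ∈ insert y (↑S : Set V)) with h | h
          · exact h
          · exact absurd h hvS
        obtain ⟨b, hb, hyb⟩ := hy
        exact hS a ha b hb ((hvy ▸ (hav.mono (hcompl x))).trans hyb)
      · obtain ⟨b, hb, hbv⟩ := hQv (j i') v hvQ hv2
        exact hS a ha b hb ((hav.mono (hcompl x)).trans (hbv.mono (hcompl y)).symm)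
  refine ⟨fun i => P i ∪ Q (j i), ?_, ?_⟩
  · intro i i' hne
    simp only [Set.disjoint_union_left, Set.disjoint_union_right]
    exact ⟨⟨hP hne, (hPQ i' i hne.symm).symm⟩, hPQ i i' hne, hQ (hjinj i i' hne)⟩
  · intro i
    obtain ⟨a, ha, haP⟩ := hPa i
    obtain ⟨b, hb, hbQ⟩ := hQb (j i)
    refine ⟨a, ha, b, hb, ?_⟩
    have w1 : Within G (P i ∪ Q (j i)) a (s i) :=
      (haP.mono_graph hle).mono Set.subset_union_left
    have w2 : Within G (P i ∪ Q (j i)) (t (j i)) b :=
      ((hbQ.mono_graph hle).mono Set.subset_union_right).symm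
    by_cases hi : s i = x
    · have h3 : t (j i) = y := by rw [hj i]; simp [φ, hi]
      rw [hi] at w1
      rw [h3] at w2
      exact w1.trans ((Within.adj hxy w1.right_mem w2.left_mem).trans w2)
    · have h3 : t (j i) = s i := by rw [hj i]; simp [φ, hi]
      rw [h3] at w2
      exact w1.trans w2

/-- Induction for Menger's theorem. -/
theorem menger_aux [Finite V] : ∀ (n : ℕ) (G : SimpleGraph V), G.edgeSet.ncard = n →
    ∀ (A B : Set V) (k : ℕ), (∀ S : Finset V, Separates G A B S → k ≤ S.card) →
    Linked G A B k := by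
  classical
  intro n
  induction n with
  | zero =>
    intro G hG A B k hk
    have := Fintype.ofFinite V
    have hE : G.edgeSet = ∅ := by
      rwa [Set.ncard_eq_zero] at hG
    have hno : ∀ u v, ¬ G.Adj u v := by
      intro u v h
      have : s(u, v) ∈ G.edgeSet := h
      rw [hE] at this
      exact this
    have hw : ∀ (C : Set V) (a b : V), Within G C a b → a = b := by
      rintro C a b ⟨p, -⟩
      cases p with
      | nil => rfl
      | cons h _ => exact absurd h (hno _ _)
    have hsep : Separates G A B ((Set.toFinset (A ∩ B) : Finset V) : Set V) := by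
      intro a ha b hb h
      have hab := hw _ _ _ h
      subst hab
      exact h.left_mem (by simp [ha, hb])
    have hc := hk _ hsep
    obtain ⟨T, hT, hTc⟩ := Finset.exists_subset_card_eq hc
    let e := T.equivFinOfCardEq hTc
    refine ⟨fun i => {(e.symm i : V)}, ?_, ?_⟩
    · intro i j hij
      rw [Set.disjoint_singleton]
      intro h
      exact hij (e.symm.injective (Subtype.ext h))
    · intro i
      have h1 : (e.symm i : V) ∈ A ∩ B := by
        have := hT (e.symm i).2
        simpa using this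
      exact ⟨_, h1.1, _, h1.2, Within.refl rfl⟩
  | succ n ih =>
    intro G hG A B k hk
    have hne : G.edgeSet.Nonempty := by
      rw [← Set.ncard_pos]
      omega
    obtain ⟨e, he⟩ := hne
    induction e using Sym2.ind with
    | _ x y =>
    have hxy : G.Adj x y := he
    set G' := G.deleteEdges {s(x, y)} with hG'
    have hle : G' ≤ G := SimpleGraph.deleteEdges_le _
    have hadj : ∀ u v, G.Adj u v → G'.Adj u v ∨ (u = x ∧ v = y) ∨ (u = y ∧ v = x) := by
      intro u v huv
      by_cases h : s(u, v) = s(x, y)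
      · right
        simpa using h
      · left
        rw [hG', SimpleGraph.deleteEdges_adj]
        exact ⟨huv, by simpa using h⟩
    have hcardE : G'.edgeSet.ncard = n := by
      rw [hG', SimpleGraph.edgeSet_deleteEdges, Set.ncard_sdiff_singleton_of_mem he, hG]
      simp
    by_cases hall : ∀ S : Finset V, Separates G' A B S → k ≤ S.card
    · exact (ih G' hcardE A B k hall).mono_graph hle
    · push Not at hall
      obtain ⟨S, hS, hSk⟩ := hall
      have hn : ¬ Separates G A B S := fun h => absurd (hk S h) (by omega)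
      have key : ∀ x y : V, G.Adj x y →
          (∀ u v, G.Adj u v → G'.Adj u v ∨ (u = x ∧ v = y) ∨ (u = y ∧ v = x)) →
          (∃ a ∈ A, Within G' (↑S : Set V)ᶜ a x) → (∃ b ∈ B, Within G' (↑S : Set V)ᶜ y b) →
          Linked G A B k := by
        intro x y hxy hadj hx hy
        have hadj' : ∀ u v, G.Adj u v → G'.Adj u v ∨ (u = y ∧ v = x) ∨ (u = x ∧ v = y) := by
          intro u v huv
          rcases hadj u v huv with h | h | h
          · exact Or.inl h
          · exact Or.inr (Or.inr h)
          · exact Or.inr (Or.inl h)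
        have c1 : ∀ T : Finset V, Separates G' A (insert x (↑S : Set V)) T → k ≤ T.card :=
          fun T hT => hk T (separates_of_step hadj hS hy hT)
        have c2 : ∀ T : Finset V, Separates G' (insert y (↑S : Set V)) B T → k ≤ T.card := by
          intro T hT
          have hx' : ∃ a ∈ A, Within G' (↑S : Set V)ᶜ x a := by
            obtain ⟨a, ha, h⟩ := hx
            exact ⟨a, ha, h.symm⟩
          exact hk T (separates_of_step hadj' hS.symm hx' hT.symm).symm
        have hxS : x ∉ S := by
          obtain ⟨a, ha, hax⟩ := hx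
          exact hax.right_mem
        have hcard : S.card + 1 = k := by
          have h1 : Separates G' A (insert x (↑S : Set V)) ((insert x S : Finset V) : Set V) := by
            intro a ha b hb hw
            exact hw.right_mem (by simpa using hb)
          have h2 := c1 _ h1
          rw [Finset.card_insert_of_notMem hxS] at h2
          omega
        exact linked_glue hle hxy hS hx hy hcard (ih G' hcardE _ _ k c1)
          (ih G' hcardE _ _ k c2)
      rcases exists_orient hadj hS hn with ⟨hx, hy⟩ | ⟨hy, hx⟩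
      · exact key x y hxy hadj hx hy
      · refine key y x hxy.symm ?_ hy hx
        intro u v huv
        rcases hadj u v huv with h | h | h
        · exact Or.inl h
        · exact Or.inr (Or.inr h)
        · exact Or.inr (Or.inl h)

/-- **Menger's theorem** (set version): in a finite graph, if every set separating `A` from `B`
has at least `k` elements then there are `k` pairwise disjoint paths from `A` to `B`. -/
theorem menger [Finite V] (G : SimpleGraph V) (A B : Set V) (k : ℕ)
    (hk : ∀ S : Finset V, Separates G A B S → k ≤ S.card) : Linked G A B k :=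
  menger_aux _ G rfl A B k hk

theorem separates_iff {G : SimpleGraph V} {A B S : Set V} :
    Separates G A B S ↔ ∀ a ∈ A, ∀ b ∈ B, ∀ p : G.Walk a b, ∃ v ∈ p.support, v ∈ S := by
  unfold Separates Within
  push Not
  simp only [Set.mem_compl_iff, not_not]

/-- Menger's theorem with trimmed paths: the first vertex of each path is its only vertex in `A`
and the last vertex is its only vertex in `B`. -/
theorem menger_paths [Finite V] (G : SimpleGraph V) (A B : Set V) (k : ℕ)
    (hk : ∀ S : Finset V, (∀ a ∈ A, ∀ b ∈ B, ∀ p : G.Walk a b, ∃ v ∈ p.support, v ∈ S) →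
      k ≤ S.card) :
    ∃ (a b : Fin k → V) (p : ∀ i, G.Walk (a i) (b i)), (∀ i, a i ∈ A) ∧ (∀ i, b i ∈ B) ∧
      (∀ i, (p i).IsPath) ∧ (∀ i, ∀ v ∈ (p i).support, v ∈ A → v = a i) ∧
      (∀ i, ∀ v ∈ (p i).support, v ∈ B → v = b i) ∧
      ∀ i j, i ≠ j → ∀ v ∈ (p i).support, v ∉ (p j).support := by
  obtain ⟨C, hC, h⟩ := menger G A B k (fun S hS => hk S (separates_iff.1 hS))
  have h' : ∀ i, ∃ a ∈ A, ∃ b ∈ B, ∃ p : G.Walk a b, p.IsPath ∧ (∀ v ∈ p.support, v ∈ C i) ∧
      (∀ v ∈ p.support, v ∈ A → v = a) ∧ (∀ v ∈ p.support, v ∈ B → v = b) := by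
    intro i
    obtain ⟨a, ha, b, hb, hw⟩ := h i
    exact exists_trim ha hb hw
  choose a ha b hb p hp hpC hpA hpB using h'
  refine ⟨a, b, p, ha, hb, hp, hpA, hpB, ?_⟩
  intro i j hij v hv hv'
  exact (Set.disjoint_left.1 (hC hij)) (hpC i v hv) (hpC j v hv')

end Vale.Agent.P235.H327
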